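import Vale.Agent.P093.N.Young

/-!
# P241, blocks YK / YOUNG: the two combinatorial statements on the Young symmetrizer `Y p r`

* `kill`: let `w` be a word of length `M p r` in a finite set of letters, each letter even or odd,
  and let `θ` be a function on the permutations with values in an abelian group such that
  `θ (σ * swap a b) = ± θ σ` whenever `a ≠ b` and `w a = w b` (sign `+` if the letter is even, `-` if
  it is odd). If `2 * (number of letters) + 1 ≤ r`, the value of `θ` at `Y p r` is `0`.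
* `survive`: if there are at least `r` letters then `∑_(w ∘ σ⁻¹ = w') Y σ` is prime to `p` for some
  words `w`, `w'`.
-/

open Finset Equiv MonoidAlgebra

namespace Vale.Agent.P241.H169

open Vale.Agent.P093.N.Young

noncomputable section

section ev

variable {G Z Z' : Type*} [AddCommGroup Z] [AddCommGroup Z']

/-- the value of a function on a group at an element of the integral group algebra -/
def ev (θ : G → Z) (x : MonoidAlgebra ℤ G) : Z := x.coeff.sum fun σ c => c • θ σ

@[simp] lemma ev_zero (θ : G → Z) : ev θ 0 = 0 := by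
  unfold ev
  simp

lemma ev_add (θ : G → Z) (x y : MonoidAlgebra ℤ G) : ev θ (x + y) = ev θ x + ev θ y := by
  unfold ev
  rw [coeff_add]
  exact Finsupp.sum_add_index' (fun _ => zero_smul _ _) (fun _ _ _ => add_smul _ _ _)

@[simp] lemma ev_single (θ : G → Z) (σ : G) (n : ℤ) : ev θ (single σ n) = n • θ σ := by
  unfold ev
  rw [coeff_single]
  exact Finsupp.sum_single_index (zero_smul _ _)

/-- `ev` as a homomorphism -/
def evHom (θ : G → Z) : MonoidAlgebra ℤ G →+ Z where
  toFun := ev θ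
  map_zero' := ev_zero θ
  map_add' := ev_add θ

lemma evHom_apply (θ : G → Z) (x : MonoidAlgebra ℤ G) : evHom θ x = ev θ x := rfl

lemma ev_sum {α : Type*} (θ : G → Z) (s : Finset α) (x : α → MonoidAlgebra ℤ G) :
    ev θ (∑ i ∈ s, x i) = ∑ i ∈ s, ev θ (x i) := map_sum (evHom θ) x s

lemma map_ev (φ : Z →+ Z') (θ : G → Z) (x : MonoidAlgebra ℤ G) :
    φ (ev θ x) = ev (fun σ => φ (θ σ)) x := by
  induction x using MonoidAlgebra.induction_linear with
  | zero => simp
  | add f g hf hg => rw [ev_add, map_add, hf, hg, ev_add]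
  | single σ n => rw [ev_single, ev_single, map_zsmul]

lemma ev_congr {θ θ' : G → Z} (h : ∀ σ, θ σ = θ' σ) (x : MonoidAlgebra ℤ G) :
    ev θ x = ev θ' x := congrArg (fun t => ev t x) (funext h)

lemma ev_eq_sum [Fintype G] (θ : G → Z) (x : MonoidAlgebra ℤ G) :
    ev θ x = ∑ σ, x.coeff σ • θ σ := by
  unfold ev
  exact Finsupp.sum_fintype _ _ fun _ => zero_smul _ _

/-- a representation is evaluated as its linear extension -/
lemma lift_eq_ev {G A : Type*} [Group G] [Ring A] (ρ : G →* A) (x : MonoidAlgebra ℤ G) :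
    MonoidAlgebra.lift ℤ A G ρ x = ev (fun σ => ρ σ) x := by
  induction x using MonoidAlgebra.induction_linear with
  | zero => simp
  | add f g hf hg => rw [map_add, hf, hg, ev_add]
  | single σ n => rw [ev_single, MonoidAlgebra.lift_single]

end ev

/-! ### The square in the diagram -/

lemma rect {ι : Type*} [Fintype ι] (odd : ι → Prop) (n : ℕ) (hn : Fintype.card ι ≤ n)
    (g : Fin (n + 1) → Fin (n + 1) → ι) :
    (∃ i j j', j ≠ j' ∧ g j i = g j' i ∧ odd (g j i)) ∨
      ∃ j i i', i ≠ i' ∧ g j i = g j i' ∧ ¬ odd (g j i) := by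
  classical
  by_contra hcon
  rw [not_or] at hcon
  obtain ⟨h1, h2⟩ := hcon
  push Not at h1 h2
  have c1 : ∀ i, (univ.filter fun j => odd (g j i)).card ≤ (univ.filter fun l : ι => odd l).card :=
    fun i => Finset.card_le_card_of_injOn (fun j => g j i) (fun j hj => by simpa using hj)
      fun j hj j' _ hjj => by
        by_contra hne
        exact h1 i j j' hne hjj (by simpa using hj)
  have c2 : ∀ j, (univ.filter fun i => ¬ odd (g j i)).card ≤
      (univ.filter fun l : ι => ¬ odd l).card :=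
    fun j => Finset.card_le_card_of_injOn (fun i => g j i) (fun i hi => by simpa using hi)
      fun i hi i' _ hii => by
        by_contra hne
        have := h2 j i i' hne hii
        have h3 : ¬ odd (g j i) := by simpa using hi
        exact h3 this
  have c3 : (univ.filter fun l : ι => odd l).card + (univ.filter fun l : ι => ¬ odd l).card ≤ n := by
    rw [Finset.card_filter_add_card_filter_not, Finset.card_univ]
    exact hn
  have c4 : ∑ i, (univ.filter fun j => odd (g j i)).card =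
      ∑ j, (univ.filter fun i => odd (g j i)).card := by
    simp only [card_filter]
    exact Finset.sum_comm
  have c5 : ∑ j, ((univ.filter fun i => odd (g j i)).card +
      (univ.filter fun i => ¬ odd (g j i)).card) = (n + 1) * (n + 1) := by
    have : ∀ j : Fin (n + 1), (univ.filter fun i => odd (g j i)).card +
        (univ.filter fun i => ¬ odd (g j i)).card = n + 1 := fun j => by
      rw [Finset.card_filter_add_card_filter_not, Finset.card_univ, Fintype.card_fin]
    simp only [this, Finset.sum_const, Finset.card_univ, Fintype.card_fin, smul_eq_mul]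
  have c6 : ∑ i, (univ.filter fun j => odd (g j i)).card ≤
      (n + 1) * (univ.filter fun l : ι => odd l).card := by
    refine (Finset.sum_le_sum fun i _ => c1 i).trans ?_
    simp
  have c7 : ∑ j, (univ.filter fun i => ¬ odd (g j i)).card ≤
      (n + 1) * (univ.filter fun l : ι => ¬ odd l).card := by
    refine (Finset.sum_le_sum fun i _ => c2 i).trans ?_
    simp
  rw [Finset.sum_add_distrib, ← c4] at c5
  have c8 : (n + 1) * (n + 1) ≤ (n + 1) * n := by
    calc (n + 1) * (n + 1) ≤ (n + 1) * (univ.filter fun l : ι => odd l).card +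
          (n + 1) * (univ.filter fun l : ι => ¬ odd l).card := by omega
      _ = (n + 1) * ((univ.filter fun l : ι => odd l).card +
          (univ.filter fun l : ι => ¬ odd l).card) := by ring
      _ ≤ (n + 1) * n := Nat.mul_le_mul_left _ c3
  have := Nat.le_of_mul_le_mul_left c8 (Nat.succ_pos n)
  omega

/-! ### `kill` -/

section kill

variable {r q : ℕ}

lemma cells {ι : Type*} [Fintype ι] (odd : ι → Prop) (hq : 0 < q)
    (hr : 2 * Fintype.card ι + 1 ≤ r) (f : Cell r q → ι) :
    (∃ x z : Cell r q, x ≠ z ∧ row x = row z ∧ f x = f z ∧ odd (f x)) ∨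
      ∃ x z : Cell r q, x ≠ z ∧ x.1 = z.1 ∧ f x = f z ∧ ¬ odd (f x) := by
  let n := Fintype.card ι
  let c : Fin (n + 1) → Fin (n + 1) → Cell r q := fun j i =>
    ⟨(⟨n + j, by have := j.isLt; omega⟩, ⟨0, hq⟩), ⟨i, by
      have := i.isLt
      change i.val < n + j + 1
      omega⟩⟩
  rcases rect odd n le_rfl (fun j i => f (c j i)) with ⟨i, j, j', hne, h1, h2⟩ |
      ⟨j, i, i', hne, h1, h2⟩
  · refine Or.inl ⟨c j i, c j' i, fun h => hne ?_, rfl, h1, h2⟩
    have h3 := congrArg (fun x : Cell r q => x.1.1.val) h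
    change n + j.val = n + j'.val at h3
    exact Fin.ext (by omega)
  · refine Or.inr ⟨c j i, c j i', fun h => hne ?_, rfl, h1, h2⟩
    have h3 := congrArg (fun x : Cell r q => row x) h
    change i.val = i'.val at h3
    exact Fin.ext h3

lemma swap_row {x z : Cell r q} (hr : row x = row z) : RowP (swap x z : Perm (Cell r q)) :=
  fun w => by
    by_cases h1 : w = x
    · rw [h1, swap_apply_left, hr]
    · by_cases h2 : w = z
      · rw [h2, swap_apply_right, hr]
      · rw [swap_apply_of_ne_of_ne h1 h2]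

variable {Z ι : Type*} [AddCommGroup Z]

lemma ev_yy (θ : Perm (Cell r q) → Z) : ev θ (yy r q) =
    ∑ τ ∈ univ.filter (ColP (r := r) (q := q)), ∑ ρ ∈ univ.filter (RowP (r := r) (q := q)),
      ((Perm.sign τ : ℤˣ) : ℤ) • θ (τ * ρ) := by
  unfold yy aa bb
  rw [Finset.sum_mul_sum, ev_sum]
  refine Finset.sum_congr rfl fun τ _ => ?_
  rw [ev_sum]
  refine Finset.sum_congr rfl fun ρ _ => ?_
  rw [single_mul_single, mul_one, ev_single]

theorem ev_yy_eq_zero [Fintype ι] (odd : ι → Prop) (hq : 0 < q)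
    (hr : 2 * Fintype.card ι + 1 ≤ r) (w : Cell r q → ι) (θ : Perm (Cell r q) → Z)
    (h0 : ∀ σ a b, a ≠ b → w a = w b → ¬ odd (w a) → θ (σ * swap a b) = θ σ)
    (h1 : ∀ σ a b, a ≠ b → w a = w b → odd (w a) → θ (σ * swap a b) = - θ σ) :
    ev θ (yy r q) = 0 := by
  classical
  rw [ev_yy]
  by_cases hA : ∃ x z : Cell r q, x ≠ z ∧ row x = row z ∧ w x = w z ∧ odd (w x)
  · obtain ⟨x, z, hne, hrow, hw, ho⟩ := hA
    refine Finset.sum_eq_zero fun τ _ => ?_
    refine Finset.sum_involution (fun ρ _ => ρ * swap x z) ?_ ?_ ?_ ?_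
    · intro ρ _
      rw [← mul_assoc, h1 _ x z hne hw ho, smul_neg, add_neg_cancel]
    · intro ρ _ _ heq
      have h2 : swap x z = 1 := mul_eq_left.1 heq
      exact hne (swap_eq_one_iff.1 h2)
    · intro ρ hρ
      simp only [mem_filter, mem_univ, true_and] at hρ ⊢
      exact hρ.mul (swap_row hrow)
    · intro ρ _
      rw [mul_assoc, swap_mul_self, mul_one]
  · rw [Finset.sum_comm]
    refine Finset.sum_eq_zero fun ρ hρ => ?_
    have hρ : RowP ρ := (mem_filter.1 hρ).2
    obtain ⟨x, z, hne, hcol, hw, ho⟩ :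
        ∃ x z : Cell r q, x ≠ z ∧ x.1 = z.1 ∧ w (ρ⁻¹ x) = w (ρ⁻¹ z) ∧ ¬ odd (w (ρ⁻¹ x)) := by
      rcases cells odd hq hr (fun x => w (ρ⁻¹ x)) with ⟨x, z, hne, hrow, hw, ho⟩ | h
      · refine absurd ⟨ρ⁻¹ x, ρ⁻¹ z, fun h => hne (ρ⁻¹.injective h), ?_, hw, ho⟩ hA
        rw [hρ.inv, hρ.inv, hrow]
      · exact h
    refine Finset.sum_involution (fun τ _ => τ * swap x z) ?_ ?_ ?_ ?_
    · intro τ _
      have e1 : τ * swap x z * ρ = τ * ρ * swap (ρ⁻¹ x) (ρ⁻¹ z) := by
        rw [mul_assoc, mul_assoc, Equiv.mul_swap_eq_swap_mul]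
        simp
      rw [e1, h0 _ _ _ (fun h => hne (ρ⁻¹.injective h)) hw ho, Perm.sign_mul, Perm.sign_swap hne,
        mul_neg, mul_one, Units.val_neg, neg_smul, add_neg_cancel]
    · intro τ _ _ heq
      have h2 : swap x z = 1 := mul_eq_left.1 heq
      exact hne (swap_eq_one_iff.1 h2)
    · intro τ hτ
      simp only [mem_filter, mem_univ, true_and] at hτ ⊢
      exact hτ.mul (swap_col hcol)
    · intro τ _
      rw [mul_assoc, swap_mul_self, mul_one]

lemma ev_domCongr {κ κ' : Type*} (e : κ ≃ κ') (θ : Perm κ' → Z) (x : MonoidAlgebra ℤ (Perm κ)) :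
    ev θ (MonoidAlgebra.domCongr ℤ ℤ e.permCongrHom x) =
      ev (fun σ => θ (e.permCongrHom σ)) x := by
  induction x using MonoidAlgebra.induction_linear with
  | zero => simp
  | add f g hf hg => rw [map_add, ev_add, hf, hg, ev_add]
  | single σ n => rw [MonoidAlgebra.domCongr_single, ev_single, ev_single]

/-- **M1**, with a predicate -/
theorem kill_prop {p : ℕ} (hp : p.Prime) {r : ℕ} [Fintype ι] (w : Fin (M p r) → ι) (odd : ι → Prop)
    (θ : Perm (Fin (M p r)) → Z)
    (h0 : ∀ σ a b, a ≠ b → w a = w b → ¬ odd (w a) → θ (σ * swap a b) = θ σ)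
    (h1 : ∀ σ a b, a ≠ b → w a = w b → odd (w a) → θ (σ * swap a b) = - θ σ)
    (hr : 2 * Fintype.card ι + 1 ≤ r) : ev θ (Y p r) = 0 := by
  have hq : 0 < p - 1 := by
    have := hp.one_lt
    omega
  unfold Y
  rw [ev_domCongr]
  have e1 : ∀ a b, (numb p r).permCongrHom (swap a b) = swap (numb p r a) (numb p r b) := by
    intro a b
    refine Equiv.ext fun x => ?_
    simp only [Equiv.permCongrHom, MulEquiv.coe_mk, Equiv.permCongr_apply, Equiv.swap_apply_def,
      Equiv.symm_apply_eq]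
    split_ifs <;> simp
  refine ev_yy_eq_zero odd hq hr (fun x => w (numb p r x)) _ ?_ ?_
  · intro σ a b hne hw ho
    rw [map_mul, e1]
    exact h0 _ _ _ (fun h => hne ((numb p r).injective h)) hw ho
  · intro σ a b hne hw ho
    rw [map_mul, e1]
    exact h1 _ _ _ (fun h => hne ((numb p r).injective h)) hw ho

/-- **M1** -/
theorem kill {p : ℕ} (hp : p.Prime) {r : ℕ} [Fintype ι] (w : Fin (M p r) → ι) (par : ι → Bool)
    (θ : Perm (Fin (M p r)) → Z)
    (h : ∀ σ a b, a ≠ b → w a = w b →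
      θ (σ * swap a b) = (if par (w a) then - θ σ else θ σ))
    (hr : 2 * Fintype.card ι + 1 ≤ r) : ev θ (Y p r) = 0 :=
  kill_prop hp w (fun i => par i = true) θ
    (fun σ a b hne hw ho => by rw [h σ a b hne hw, if_neg ho])
    (fun σ a b hne hw ho => by rw [h σ a b hne hw, if_pos ho]) hr

/-- **M1**, with signs -/
theorem kill_sign {p : ℕ} (hp : p.Prime) {r : ℕ} [Fintype ι] (w : Fin (M p r) → ι) (sg : ι → ℤˣ)
    (θ : Perm (Fin (M p r)) → Z)
    (h : ∀ σ a b, a ≠ b → w a = w b → θ (σ * swap a b) = (sg (w a) : ℤ) • θ σ)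
    (hr : 2 * Fintype.card ι + 1 ≤ r) : ev θ (Y p r) = 0 :=
  kill_prop hp w (fun i => sg i = -1) θ
    (fun σ a b hne hw ho => by
      rw [h σ a b hne hw, (Int.units_eq_one_or (sg (w a))).resolve_right ho, Units.val_one,
        one_smul])
    (fun σ a b hne hw ho => by
      rw [h σ a b hne hw, ho, Units.val_neg, Units.val_one, neg_smul, one_smul]) hr

/-- **M1**, as a sum -/
theorem kill_sum {p : ℕ} (hp : p.Prime) {r : ℕ} [Fintype ι] (w : Fin (M p r) → ι) (par : ι → Bool)
    (θ : Perm (Fin (M p r)) → Z)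
    (h : ∀ σ a b, a ≠ b → w a = w b →
      θ (σ * swap a b) = (if par (w a) then - θ σ else θ σ))
    (hr : 2 * Fintype.card ι + 1 ≤ r) :
    ∑ σ : Perm (Fin (M p r)), (Y p r).coeff σ • θ σ = 0 := by
  rw [← ev_eq_sum]
  exact kill hp w par θ h hr

/-- **M1**, as a sum, with signs -/
theorem kill_sum_sign {p : ℕ} (hp : p.Prime) {r : ℕ} [Fintype ι] (w : Fin (M p r) → ι)
    (sg : ι → ℤˣ) (θ : Perm (Fin (M p r)) → Z)
    (h : ∀ σ a b, a ≠ b → w a = w b → θ (σ * swap a b) = (sg (w a) : ℤ) • θ σ)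
    (hr : 2 * Fintype.card ι + 1 ≤ r) :
    ∑ σ : Perm (Fin (M p r)), (Y p r).coeff σ • θ σ = 0 := by
  rw [← ev_eq_sum]
  exact kill_sign hp w sg θ h hr

end kill

/-! ### `survive` -/

section survive

variable {κ ι : Type*} [Fintype κ] [DecidableEq κ]

open Classical in
/-- the coefficient `∑_(w ∘ σ⁻¹ = w') x σ` -/
def cf (x : MonoidAlgebra ℤ (Perm κ)) (w w' : κ → ι) : ℤ :=
  ∑ σ ∈ univ.filter (fun σ : Perm κ => w ∘ ⇑σ⁻¹ = w'), x.coeff σ

open Classical in
lemma cf_eq_ev (x : MonoidAlgebra ℤ (Perm κ)) (w w' : κ → ι) :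
    cf x w w' = ev (fun σ : Perm κ => if w ∘ ⇑σ⁻¹ = w' then (1 : ℤ) else 0) x := by
  rw [ev_eq_sum]
  unfold cf
  rw [Finset.sum_filter]
  refine Finset.sum_congr rfl fun σ _ => ?_
  split_ifs with h
  · rw [smul_eq_mul, mul_one]
  · rw [smul_zero]

/-- if `θ σ` depends only on `w ∘ σ⁻¹` then `ev θ` is computed with the coefficients `cf` -/
lemma ev_eq_sum_cf [Fintype ι] {Z : Type*} [AddCommGroup Z] (x : MonoidAlgebra ℤ (Perm κ))
    (w : κ → ι) (t : (κ → ι) → Z) :
    ev (fun σ : Perm κ => t (w ∘ ⇑σ⁻¹)) x = ∑ w', cf x w w' • t w' := by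
  classical
  rw [ev_eq_sum]
  unfold cf
  simp only [Finset.sum_smul]
  rw [← Finset.sum_fiberwise (g := fun σ : Perm κ => w ∘ ⇑σ⁻¹)]
  refine Finset.sum_congr rfl fun w' _ => Finset.sum_congr ?_ fun σ hσ => ?_
  · ext σ
    simp
  · rw [(mem_filter.1 hσ).2]

/-- if `θ σ = 0` unless `w ∘ σ⁻¹ = w'`, and `θ σ = z` if `w ∘ σ⁻¹ = w'`, then `ev θ x = cf x • z` -/
lemma ev_eq_cf_smul {Z : Type*} [AddCommGroup Z] (x : MonoidAlgebra ℤ (Perm κ))
    (w w' : κ → ι) (θ : Perm κ → Z) (z : Z)
    (h : ∀ σ : Perm κ, w ∘ ⇑σ⁻¹ = w' → θ σ = z)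
    (h' : ∀ σ : Perm κ, w ∘ ⇑σ⁻¹ ≠ w' → θ σ = 0) : ev θ x = cf x w w' • z := by
  classical
  rw [ev_eq_sum]
  unfold cf
  rw [Finset.sum_smul, Finset.sum_filter]
  refine Finset.sum_congr rfl fun σ _ => ?_
  split_ifs with hσ
  · rw [h σ hσ]
  · rw [h' σ hσ, smul_zero]

lemma cf_comp {ι' : Type*} {s : ι → ι'} (hs : Function.Injective s) (x : MonoidAlgebra ℤ (Perm κ))
    (w w' : κ → ι) : cf x (s ∘ w) (s ∘ w') = cf x w w' := by
  unfold cf
  refine Finset.sum_congr ?_ fun _ _ => rfl
  ext σ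
  simp only [mem_filter, mem_univ, true_and]
  constructor
  · intro h
    funext a
    exact hs (congrFun h a)
  · intro h
    funext a
    exact congrArg s (congrFun h a)

lemma act_apply_eq {k : Type*} [CommRing k] [Fintype ι] (x : MonoidAlgebra ℤ (Perm κ))
    (F : (κ → ι) → k) (w' : κ → ι) :
    act k ι κ x F w' = ∑ w, (cf x w w' : k) * F w := by
  classical
  have h1 : act k ι κ x F w' = ∑ σ, (x.coeff σ : k) * F (w' ∘ σ) := by
    induction x using MonoidAlgebra.induction_linear with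
    | zero => simp
    | add f g hf hg =>
      rw [map_add, LinearMap.add_apply, Pi.add_apply, hf, hg, ← Finset.sum_add_distrib]
      refine Finset.sum_congr rfl fun σ _ => ?_
      rw [coeff_add, Finsupp.add_apply, Int.cast_add, add_mul]
    | single σ n =>
      rw [act_single, Finset.sum_eq_single_of_mem σ (mem_univ _)]
      · rw [coeff_single, Finsupp.single_eq_same]
      · intro τ _ hne
        rw [coeff_single, Finsupp.single_eq_of_ne hne, Int.cast_zero, zero_mul]
  rw [h1]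
  unfold cf
  simp only [Int.cast_sum, Finset.sum_mul]
  rw [← Finset.sum_fiberwise (g := fun σ : Perm κ => w' ∘ ⇑σ)]
  refine Finset.sum_congr rfl fun w _ => Finset.sum_congr ?_ fun σ hσ => ?_
  · ext σ
    simp only [mem_filter, mem_univ, true_and]
    constructor
    · rintro rfl
      funext a
      simp
    · rintro rfl
      funext a
      simp
  · have : w ∘ ⇑σ⁻¹ = w' := by simpa using hσ
    rw [← this]
    congr 2
    funext a
    simp

/-- **M2** -/
theorem survive {p : ℕ} (hp : p.Prime) {r : ℕ} {s : Fin r → ι} (hs : Function.Injective s) :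
    ∃ w w' : Fin (M p r) → ι, (∀ i, w i ∈ Set.range s) ∧ (∀ i, w' i ∈ Set.range s) ∧
      ¬ (p : ℤ) ∣ cf (Y p r) w w' := by
  have : Fact p.Prime := ⟨hp⟩
  suffices h : ∃ w w' : Fin (M p r) → Fin r, ¬ (p : ℤ) ∣ cf (Y p r) w w' by
    obtain ⟨w, w', h⟩ := h
    refine ⟨s ∘ w, s ∘ w', fun i => ⟨w i, rfl⟩, fun i => ⟨w' i, rfl⟩, ?_⟩
    rwa [cf_comp hs]
  by_contra hcon
  push Not at hcon
  refine act_Y_ne_zero hp (r := r) (k := ZMod p) (ι := Fin r) (ne_zero_of_charP p (ZMod p))
    (by rw [Fintype.card_fin]) ?_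
  refine LinearMap.ext fun F => funext fun w' => ?_
  rw [act_apply_eq]
  refine Finset.sum_eq_zero fun w _ => ?_
  rw [(ZMod.intCast_zmod_eq_zero_iff_dvd _ p).2 (hcon w w'), zero_mul]

/-- **M2**, with a number of letters -/
theorem survive_card {p : ℕ} (hp : p.Prime) {r : ℕ} [Fintype ι] (hr : r ≤ Fintype.card ι) :
    ∃ w w' : Fin (M p r) → ι, ¬ (p : ℤ) ∣ cf (Y p r) w w' := by
  obtain ⟨w, w', -, -, h⟩ := survive hp (r := r)
    (s := fun i : Fin r => (Fintype.equivFin ι).symm (Fin.castLE hr i))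
    (fun i j hij => by simpa using hij)
  exact ⟨w, w', h⟩

open Classical in
/-- **M2**, as a sum -/
theorem survive_sum {p : ℕ} (hp : p.Prime) {r : ℕ} {s : Fin r → ι} (hs : Function.Injective s) :
    ∃ w w' : Fin (M p r) → ι, (∀ i, w i ∈ Set.range s) ∧ (∀ i, w' i ∈ Set.range s) ∧
      ¬ (p : ℤ) ∣ ∑ σ ∈ univ.filter (fun σ : Perm (Fin (M p r)) => w ∘ ⇑σ⁻¹ = w'),
        (Y p r).coeff σ :=
  survive hp hs

open Classical in
/-- **M2**, as a sum, with a number of letters -/
theorem survive_sum_card {p : ℕ} (hp : p.Prime) {r : ℕ} [Fintype ι] (hr : r ≤ Fintype.card ι) :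
    ∃ w w' : Fin (M p r) → ι,
      ¬ (p : ℤ) ∣ ∑ σ ∈ univ.filter (fun σ : Perm (Fin (M p r)) => w ∘ ⇑σ⁻¹ = w'),
        (Y p r).coeff σ :=
  survive_card hp hr

end survive

end

end Vale.Agent.P241.H169
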